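import Vale.Agent.Snaky.Cert.PassP0

namespace Vale.Agent.Snaky.Pass

open Vale.Agent.Snaky

theorem ok : checkS n2676 (2 ^ 840) 0 = 1319512513607571480504241543443215711214269350450678990866481769283699030265228095628828591699498378637821687454235808477538782905830074502091017684706502561518669763903416197818513536253064720745980539745586035284700552017758140387623342421401909352211325360608298516383906008482148230803921395521006385690327384064 := by decide +kernel

end Vale.Agent.Snaky.Pass
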