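import Vale.Agent.Snaky.Cert.R2_0P0

namespace Vale.Agent.Snaky.R2_0

open Vale.Agent.Snaky

theorem ok : checkS n5896 (2 ^ 840) (2 ^ 842) ≠ 0 := by decide +kernel

theorem reply : MakerWins {cellOf 840} {cellOf 842} :=
  makerWins_reply n5896 840 842 ok

end Vale.Agent.Snaky.R2_0
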