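import Vale.Agent.Snaky.Cert.R3_3P0

namespace Vale.Agent.Snaky.R3_3

open Vale.Agent.Snaky

theorem ok : checkS n2771 (2 ^ 840) (2 ^ 966) ≠ 0 := by decide +kernel

theorem reply : MakerWins {cellOf 840} {cellOf 966} :=
  makerWins_reply n2771 840 966 ok

end Vale.Agent.Snaky.R3_3
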