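import Vale.Agent.Snaky.Cert.R5_2P0

namespace Vale.Agent.Snaky.R5_2

open Vale.Agent.Snaky

theorem ok : checkS n2384 (2 ^ 840) (2 ^ 927) ≠ 0 := by decide +kernel

theorem reply : MakerWins {cellOf 840} {cellOf 927} :=
  makerWins_reply n2384 840 927 ok

end Vale.Agent.Snaky.R5_2
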