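import Vale.Agent.Snaky.Cert.R6_0P0

namespace Vale.Agent.Snaky.R6_0

open Vale.Agent.Snaky

theorem ok : checkS n2864 (2 ^ 840) (2 ^ 846) ≠ 0 := by decide +kernel

theorem reply : MakerWins {cellOf 840} {cellOf 846} :=
  makerWins_reply n2864 840 846 ok

end Vale.Agent.Snaky.R6_0
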